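import Vale.Agent.P207.H267.Q.BetaP

/-!
P207, all dimensions (line N4), row BETA (step 8), the end: `BaseD.exists_P`.
-/

set_option maxSynthPendingDepth 3

open Set Filter Topology Metric
open scoped ContDiff

noncomputable section

namespace Vale.Agent.P207.H267.Q

namespace BetaD

variable {V E E' : Type*} [NormedAddCommGroup E] [NormedSpace ℝ E]
  [NormedAddCommGroup E'] [NormedSpace ℝ E'] (D : BetaD V E E')

theorem cc_diff {v : V} {p : E' × E} (hp : p ∈ ball (0 : E' × E) D.r) :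
    HasFDerivAt (D.cc v) (fderiv ℝ (D.cc v) p) p :=
  (((D.cc_smooth v).contDiffAt (isOpen_ball.mem_nhds hp)).differentiableAt (by simp)).hasFDerivAt

theorem C_diff {v : V} {z : E'} {u : E} (hz : ‖z‖ < D.r) (hu : ‖u‖ < D.r) :
    HasFDerivAt (D.C v u) ((fderiv ℝ (D.cc v) (z, u)).comp (ContinuousLinearMap.inl ℝ E' E)) z :=
  comp_left (D.cc_diff (by rw [mem_iff]; exact ⟨hz, hu⟩))

theorem D1_eq (v : V) (p : E' × E) (w : E) : D.D1 v p w = D.K v (D.cc v p w) := by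
  simp [cc]

theorem cc_lip {v : V} {p q : E' × E} (hp : p ∈ ball (0 : E' × E) D.r)
    (hq : q ∈ ball (0 : E' × E) D.r) :
    ‖fderiv ℝ (D.cc v) q - fderiv ℝ (D.cc v) p‖ ≤ D.A 2 * ‖q - p‖ :=
  fderiv_lip isOpen_ball (convex_ball _ _) (D.cc_smooth v) (fun _ hz => D.cc_bound 2 hz) hp hq

theorem norm_comp_inl_le {W : Type*} [NormedAddCommGroup W] [NormedSpace ℝ W]
    (T : E' × E →L[ℝ] W) : ‖T.comp (ContinuousLinearMap.inl ℝ E' E)‖ ≤ ‖T‖ := by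
  refine ContinuousLinearMap.opNorm_le_bound _ (norm_nonneg _) fun z => ?_
  have h1 := T.le_opNorm (z, 0)
  have h2 : ‖(z, (0 : E))‖ = ‖z‖ := by simp [Prod.norm_def]
  rw [h2] at h1
  simpa using h1

theorem C_fderiv_le {v : V} {z : E'} {u : E} (hz : ‖z‖ < D.r) (hu : ‖u‖ < D.r) :
    ‖fderiv ℝ (D.C v u) z‖ ≤ D.A 1 := by
  rw [(D.C_diff hz hu).fderiv]
  refine (norm_comp_inl_le _).trans ?_
  rw [← norm_iteratedFDeriv_one]
  exact D.cc_bound 1 (by rw [mem_iff]; exact ⟨hz, hu⟩)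

theorem C_fderiv_lip {v : V} {z z' : E'} {u : E} (hz : ‖z‖ < D.r) (hz' : ‖z'‖ < D.r)
    (hu : ‖u‖ < D.r) : ‖fderiv ℝ (D.C v u) z - fderiv ℝ (D.C v u) z'‖ ≤ D.A 2 * ‖z - z'‖ := by
  rw [(D.C_diff hz hu).fderiv, (D.C_diff hz' hu).fderiv]
  have e : (fderiv ℝ (D.cc v) (z, u)).comp (ContinuousLinearMap.inl ℝ E' E) -
      (fderiv ℝ (D.cc v) (z', u)).comp (ContinuousLinearMap.inl ℝ E' E) =
      (fderiv ℝ (D.cc v) (z, u) - fderiv ℝ (D.cc v) (z', u)).comp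
        (ContinuousLinearMap.inl ℝ E' E) := by
    ext; simp
  rw [e]
  refine (norm_comp_inl_le _).trans ?_
  have h1 := D.cc_lip (v := v) (p := (z', u)) (q := (z, u)) (by rw [mem_iff]; exact ⟨hz', hu⟩)
    (by rw [mem_iff]; exact ⟨hz, hu⟩)
  have h2 : ‖(z, u) - (z', u)‖ = ‖z - z'‖ := by simp [Prod.norm_def]
  rwa [h2] at h1

theorem A_nonneg (v : V) (k : ℕ) : 0 ≤ D.A k :=
  (norm_nonneg _).trans (D.cc_bound (v := v) k (p := 0) (mem_ball_self D.r_pos))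

end BetaD

namespace BaseD

open BetaD

variable {V E E' : Type*} [NormedAddCommGroup E] [NormedSpace ℝ E]
  [NormedAddCommGroup E'] [NormedSpace ℝ E'] (D : BaseD V E E')

theorem lt_r {W : Type*} [NormedAddCommGroup W] {x : W} (h : ‖x‖ < D.ρ) : ‖x‖ < D.r :=
  h.trans_le D.ρ_le

/-- the `z`-derivative of the base change -/
theorem base_Ph {v : V} {z₁ : E'} (hz : ‖z₁‖ < D.ρ) :
    ∀ᶠ z in 𝓝 z₁, ‖D.κ' v z₁ (z - z₁)‖ < D.r ∧ ‖z‖ < D.r ∧ ∀ u, ‖u‖ < D.ρ →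
      (D.Ph (D.mv v z₁) (D.κ' v z₁ (z - z₁), D.g v z₁ u)).comp (D.κ' v z₁ : E' →L[ℝ] E') =
        D.Ph v (z, u) := by
  have hr := D.r_pos
  have h1 := (D.base v z₁ hz).eventually_nhds
  have h2 : ∀ᶠ z in 𝓝 z₁, ‖D.κ' v z₁ (z - z₁)‖ < D.r := by
    have hc : Continuous fun z => ‖D.κ' v z₁ (z - z₁)‖ :=
      ((D.κ' v z₁).continuous.comp (continuous_id.sub continuous_const)).norm
    exact hc.continuousAt.eventually_lt continuousAt_const (by simpa using hr)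
  have h3 : ∀ᶠ z in 𝓝 z₁, ‖z‖ < D.r :=
    continuous_norm.continuousAt.eventually_lt continuousAt_const (D.lt_r hz)
  filter_upwards [h1, h2, h3] with z hz1 hz2 hz3
  refine ⟨hz2, hz3, fun u hu => ?_⟩
  have hg := D.g_lt v z₁ u hz hu
  have hm : (D.κ' v z₁ (z - z₁), D.g v z₁ u) ∈ ball (0 : E' × E) D.r := by
    rw [mem_iff]; exact ⟨hz2, hg⟩
  have hm' : (z, u) ∈ ball (0 : E' × E) D.r := by rw [mem_iff]; exact ⟨hz3, D.lt_r hu⟩
  have d1 : HasFDerivAt (fun z => D.β v (z, u) - D.β v (z₁, u)) (D.Ph v (z, u)) z := by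
    have h6 : HasFDerivAt (fun z => D.β v (z, u)) (D.Ph v (z, u)) z :=
      comp_left (((D.at_smooth (v := v) hm').differentiableAt (by simp)).hasFDerivAt)
    exact h6.sub_const _
  have d2 : HasFDerivAt (fun w => D.κ' v z₁ (w - z₁)) (D.κ' v z₁ : E' →L[ℝ] E') z := by
    exact (D.κ' v z₁ : E' →L[ℝ] E').hasFDerivAt.comp z ((hasFDerivAt_id z).sub_const z₁)
  have d3 : HasFDerivAt (fun w => D.β (D.mv v z₁) (w, D.g v z₁ u))
      (D.Ph (D.mv v z₁) (D.κ' v z₁ (z - z₁), D.g v z₁ u)) (D.κ' v z₁ (z - z₁)) :=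
    comp_left (((D.at_smooth (v := D.mv v z₁) hm).differentiableAt (by simp)).hasFDerivAt)
  have d4 : HasFDerivAt (fun w => D.β (D.mv v z₁) (D.κ' v z₁ (w - z₁), D.g v z₁ u))
      ((D.Ph (D.mv v z₁) (D.κ' v z₁ (z - z₁), D.g v z₁ u)).comp (D.κ' v z₁ : E' →L[ℝ] E')) z :=
    HasFDerivAt.comp (g := fun w => D.β (D.mv v z₁) (w, D.g v z₁ u)) z d3 d2
  have h5 : (fun w => D.β (D.mv v z₁) (D.κ' v z₁ (w - z₁), D.g v z₁ u)) =ᶠ[𝓝 z]
      fun w => D.β v (w, u) - D.β v (z₁, u) := by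
    filter_upwards [hz1] with w hw using hw u hu
  exact d4.unique (d1.congr_of_eventuallyEq h5)

theorem base_Ph0 {v : V} {z₁ : E'} (hz : ‖z₁‖ < D.ρ) {u : E} (hu : ‖u‖ < D.ρ) :
    (D.K (D.mv v z₁) (D.g v z₁ u)).comp (D.κ' v z₁ : E' →L[ℝ] E') = D.Ph v (z₁, u) := by
  have h1 := (D.base_Ph (v := v) hz).self_of_nhds.2.2 u hu
  rw [sub_self, map_zero, D.bott _ _ (D.g_lt v z₁ u hz hu)] at h1
  exact h1

theorem Ph_deriv_u {v : V} {z : E'} {u : E} (hz : ‖z‖ < D.r) (hu : ‖u‖ < D.r) :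
    HasFDerivAt (fun u => D.Ph v (z, u)) (D.D1 v (z, u)) u :=
  comp_right (D.Ph_diff (by rw [mem_iff]; exact ⟨hz, hu⟩))

/-- `K` is parallel -/
theorem K_par {v : V} {z₁ : E'} (hz : ‖z₁‖ < D.ρ) (w : E) :
    D.K v w = (D.K (D.mv v z₁) (D.κ v z₁ w)).comp (D.κ' v z₁ : E' →L[ℝ] E') := by
  set T : (E' →L[ℝ] ℝ) →L[ℝ] (E' →L[ℝ] ℝ) :=
    (ContinuousLinearMap.compL ℝ E' E' ℝ).flip (D.κ' v z₁ : E' →L[ℝ] E') with hT
  have h1 : HasFDerivAt (fun u => D.Ph v (z₁, u)) (D.D1 v (z₁, 0)) 0 :=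
    D.Ph_deriv_u (D.lt_r hz) (by simpa using D.r_pos)
  have h2 : HasFDerivAt (fun u => T (D.K (D.mv v z₁) (D.g v z₁ u)))
      (T ∘L ((D.K (D.mv v z₁) : E →L[ℝ] E' →L[ℝ] ℝ) ∘L (D.κ v z₁ : E →L[ℝ] E))) 0 :=
    T.hasFDerivAt.comp (0 : E)
      ((D.K (D.mv v z₁) : E →L[ℝ] E' →L[ℝ] ℝ).hasFDerivAt.comp (0 : E) (D.g_deriv v z₁ hz))
  have h3 : (fun u => T (D.K (D.mv v z₁) (D.g v z₁ u))) =ᶠ[𝓝 0] fun u => D.Ph v (z₁, u) := by
    filter_upwards [ball_mem_nhds (0 : E) D.ρ_pos] with u hu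
    exact D.base_Ph0 hz (by simpa using hu)
  have h4 := h2.unique (h1.congr_of_eventuallyEq h3)
  have h5 := congrArg (fun A : E →L[ℝ] E' →L[ℝ] ℝ => A w) h4
  have h6 : D.D1 v (z₁, 0) w = D.K v w := by
    rw [D.D1_eq, D.cc_right v z₁ (D.lt_r hz)]; rfl
  rw [← h6]
  exact h5.symm

/-- **the formula of the holonomy** -/
theorem hol_eq {v : V} {z₁ : E'} (hz : ‖z₁‖ < D.ρ) {u : E} (hu : ‖u‖ < D.ρ) :
    D.K v ((D.κ v z₁).symm (D.g v z₁ u)) = D.Ph v (z₁, u) := by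
  rw [D.K_par hz, ContinuousLinearEquiv.apply_symm_apply, D.base_Ph0 hz hu]

theorem h_deriv_u {v : V} {z : E'} {u : E} (hz : ‖z‖ < D.ρ) (hu : ‖u‖ < D.ρ) :
    HasFDerivAt (fun u => (D.κ v z).symm (D.g v z u)) (D.C v u z) u := by
  have h1 := D.Ph_deriv_u (v := v) (D.lt_r hz) (D.lt_r hu)
  have h2 := ((D.K v).symm : (E' →L[ℝ] ℝ) →L[ℝ] E).hasFDerivAt.comp u h1
  refine HasFDerivAt.congr_of_eventuallyEq (h2 : HasFDerivAt _ _ _) ?_
  filter_upwards [isOpen_ball.mem_nhds (show u ∈ ball (0 : E) D.ρ by simpa using hu)] with w hw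
  have := D.hol_eq (v := v) hz (u := w) (by simpa using hw)
  show _ = (D.K v).symm (D.Ph v (z, w))
  rw [← this, ContinuousLinearEquiv.symm_apply_apply]

theorem g_deriv_u {v : V} {z : E'} {u : E} (hz : ‖z‖ < D.ρ) (hu : ‖u‖ < D.ρ) :
    HasFDerivAt (D.g v z) ((D.κ v z : E →L[ℝ] E) ∘L D.C v u z) u := by
  have h1 := (D.κ v z : E →L[ℝ] E).hasFDerivAt.comp u (D.h_deriv_u (v := v) hz hu)
  refine HasFDerivAt.congr_of_eventuallyEq (h1 : HasFDerivAt _ _ _) (Eventually.of_forall ?_)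
  intro w
  simp

/-- the base change of the derivative of the holonomy -/
theorem C_base_unif {v : V} {z₁ : E'} (hz : ‖z₁‖ < D.ρ) :
    ∀ᶠ z in 𝓝 z₁, ∀ u, ‖u‖ < D.ρ → D.C v u z = (cj (D.κ v z₁).symm
      (D.C (D.mv v z₁) (D.g v z₁ u) (D.κ' v z₁ (z - z₁)))) ∘L D.C v u z₁ := by
  set T : (E' →L[ℝ] ℝ) →L[ℝ] (E' →L[ℝ] ℝ) :=
    (ContinuousLinearMap.compL ℝ E' E' ℝ).flip (D.κ' v z₁ : E' →L[ℝ] E') with hT
  filter_upwards [D.base_Ph (v := v) hz] with z hz' u hu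
  obtain ⟨h1, h2, h3⟩ := hz'
  have hg := D.g_lt v z₁ u hz hu
  have d1 : HasFDerivAt (fun u => D.Ph v (z, u)) (D.D1 v (z, u)) u :=
    D.Ph_deriv_u h2 (D.lt_r hu)
  have d2 : HasFDerivAt (fun w => D.Ph (D.mv v z₁) (D.κ' v z₁ (z - z₁), w))
      (D.D1 (D.mv v z₁) (D.κ' v z₁ (z - z₁), D.g v z₁ u)) (D.g v z₁ u) := D.Ph_deriv_u h1 hg
  have d3 := T.hasFDerivAt.comp u (HasFDerivAt.comp (g := fun w =>
    D.Ph (D.mv v z₁) (D.κ' v z₁ (z - z₁), w)) u d2 (D.g_deriv_u (v := v) hz hu))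
  have h4 : (fun u => T (D.Ph (D.mv v z₁) (D.κ' v z₁ (z - z₁), D.g v z₁ u))) =ᶠ[𝓝 u]
      fun u => D.Ph v (z, u) := by
    filter_upwards [isOpen_ball.mem_nhds (show u ∈ ball (0 : E) D.ρ by simpa using hu)] with w hw
    exact h3 w (by simpa using hw)
  have h5 := (HasFDerivAt.unique (d3 : HasFDerivAt _ _ _) (d1.congr_of_eventuallyEq h4))
  ext w
  apply (D.K v).injective
  have h6 := congrArg (fun A : E →L[ℝ] E' →L[ℝ] ℝ => A w) h5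
  have h7 : D.K v (D.C v u z w) = D.D1 v (z, u) w := (D.D1_eq v (z, u) w).symm
  rw [h7, ← h6, D.K_par hz]
  simp only [ContinuousLinearMap.comp_apply, cj, ContinuousLinearEquiv.coe_coe,
    ContinuousLinearEquiv.apply_symm_apply, ContinuousLinearEquiv.symm_symm]
  rw [D.D1_eq]
  rfl

theorem C_base {v : V} {z₁ : E'} {u : E} (hz : ‖z₁‖ < D.ρ) (hu : ‖u‖ < D.ρ) :
    ∀ᶠ z in 𝓝 z₁, D.C v u z = (cj (D.κ v z₁).symm
      (D.C (D.mv v z₁) (D.g v z₁ u) (D.κ' v z₁ (z - z₁)))) ∘L D.C v u z₁ := by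
  filter_upwards [D.C_base_unif (v := v) hz] with z hz' using hz' u hu

end BaseD

end Vale.Agent.P207.H267.Q
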