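import Vale.Agent.P207.H267.Q.Flip

/-!
P207, all dimensions, strictly quarter pinched (`b < 2a`), row ST8': the tensor `P1` as the fourth
derivative `c22 = ∂_z² ∂_u² β` of the four point function.
-/

set_option maxSynthPendingDepth 3

open Set Filter Topology Metric
open scoped ContDiff

noncomputable section

namespace Vale.Agent.P207.H267.Q

section Four

variable {F G H : Type*} [NormedAddCommGroup F] [NormedSpace ℝ F] [NormedAddCommGroup G]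
  [NormedSpace ℝ G] [NormedAddCommGroup H] [NormedSpace ℝ H]

theorem iter4 (f : F → G) (x a b c d : F) : iteratedFDeriv ℝ 4 f x ![a, b, c, d] =
    fderiv ℝ (fderiv ℝ (fderiv ℝ (fderiv ℝ f))) x a b c d := by
  rw [iteratedFDeriv_succ_apply_right, iteratedFDeriv_succ_apply_right,
    iteratedFDeriv_succ_apply_right, iteratedFDeriv_succ_apply_right, iteratedFDeriv_zero_apply]
  rfl

variable {s : Set F}

theorem smooth_at {g : F → G} (hs : IsOpen s) (hg : ContDiffOn ℝ ∞ g s) {x : F} (hx : x ∈ s) :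
    DifferentiableAt ℝ g x := (hg.contDiffAt (hs.mem_nhds hx)).differentiableAt (by simp)

theorem fderiv_clm {g : F → G} (Φ : G →L[ℝ] H) (hs : IsOpen s) (hg : ContDiffOn ℝ ∞ g s) {x : F}
    (hx : x ∈ s) : fderiv ℝ (fun y => Φ (g y)) x = Φ ∘L fderiv ℝ g x :=
  (Φ.hasFDerivAt.comp x (smooth_at hs hg hx).hasFDerivAt).fderiv

theorem fderiv2_clm {g : F → G} (Φ : G →L[ℝ] H) (hs : IsOpen s) (hg : ContDiffOn ℝ ∞ g s) {x : F}
    (hx : x ∈ s) (a b : F) : fderiv ℝ (fderiv ℝ (fun y => Φ (g y))) x a b =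
      Φ (fderiv ℝ (fderiv ℝ g) x a b) := by
  have h1 : fderiv ℝ (fun y => Φ (g y)) =ᶠ[𝓝 x]
      fun y => (ContinuousLinearMap.compL ℝ F G H Φ) (fderiv ℝ g y) := by
    filter_upwards [hs.mem_nhds hx] with y hy
    exact fderiv_clm Φ hs hg hy
  rw [h1.fderiv_eq, fderiv_clm _ hs (hg.fderiv_of_isOpen hs (by simp)) hx]
  rfl

theorem snd_symm {g : F → G} (hs : IsOpen s) (hg : ContDiffOn ℝ ∞ g s) {x : F} (hx : x ∈ s)
    (a b : F) : fderiv ℝ (fderiv ℝ g) x a b = fderiv ℝ (fderiv ℝ g) x b a := by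
  have h1 : ContDiffAt ℝ ∞ g x := hg.contDiffAt (hs.mem_nhds hx)
  have h2 : IsSymmSndFDerivAt ℝ g x :=
    h1.isSymmSndFDerivAt (by
      rw [minSmoothness_of_isRCLikeNormedField]
      exact ENat.LEInfty.out)
  exact h2.eq a b

/-- the permutation of the fourth derivative which is used below -/
theorem perm4 {f : F → G} (hs : IsOpen s) (hf : ContDiffOn ℝ ∞ f s) {x : F} (hx : x ∈ s)
    (a b c d : F) : fderiv ℝ (fderiv ℝ (fderiv ℝ (fderiv ℝ f))) x a b c d =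
      fderiv ℝ (fderiv ℝ (fderiv ℝ (fderiv ℝ f))) x b d a c := by
  have hf1 : ContDiffOn ℝ ∞ (fderiv ℝ f) s := hf.fderiv_of_isOpen hs (by simp)
  have hf2 : ContDiffOn ℝ ∞ (fderiv ℝ (fderiv ℝ f)) s := hf1.fderiv_of_isOpen hs (by simp)
  have hf3 : ContDiffOn ℝ ∞ (fderiv ℝ (fderiv ℝ (fderiv ℝ f))) s :=
    hf2.fderiv_of_isOpen hs (by simp)
  -- the last two
  have s34 : ∀ a b c d : F, fderiv ℝ (fderiv ℝ (fderiv ℝ (fderiv ℝ f))) x a b c d =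
      fderiv ℝ (fderiv ℝ (fderiv ℝ (fderiv ℝ f))) x a b d c := by
    intro a b c d
    set Φ : F → F → (F →L[ℝ] F →L[ℝ] G) →L[ℝ] G := fun c d =>
      (ContinuousLinearMap.apply ℝ G d) ∘L (ContinuousLinearMap.apply ℝ (F →L[ℝ] G) c) with hΦ
    have h1 := fderiv2_clm (Φ c d) hs hf2 hx a b
    have h2 := fderiv2_clm (Φ d c) hs hf2 hx a b
    have h3 : (fun y => Φ c d (fderiv ℝ (fderiv ℝ f) y)) =ᶠ[𝓝 x]
        fun y => Φ d c (fderiv ℝ (fderiv ℝ f) y) := by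
      filter_upwards [hs.mem_nhds hx] with y hy
      exact snd_symm hs hf hy c d
    have h4 : fderiv ℝ (fun y => Φ c d (fderiv ℝ (fderiv ℝ f) y)) =ᶠ[𝓝 x]
        fderiv ℝ (fun y => Φ d c (fderiv ℝ (fderiv ℝ f) y)) := h3.fderiv
    rw [h4.fderiv_eq] at h1
    exact h1.symm.trans h2
  -- the first two
  have s12 : ∀ a b c d : F, fderiv ℝ (fderiv ℝ (fderiv ℝ (fderiv ℝ f))) x a b c d =
      fderiv ℝ (fderiv ℝ (fderiv ℝ (fderiv ℝ f))) x b a c d := by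
    intro a b c d
    rw [snd_symm hs hf2 hx a b]
  -- the middle ones
  have s23 : ∀ a b c d : F, fderiv ℝ (fderiv ℝ (fderiv ℝ (fderiv ℝ f))) x a b c d =
      fderiv ℝ (fderiv ℝ (fderiv ℝ (fderiv ℝ f))) x a c b d := by
    intro a b c d
    set Φ : F → F → (F →L[ℝ] F →L[ℝ] F →L[ℝ] G) →L[ℝ] (F →L[ℝ] G) := fun b c =>
      (ContinuousLinearMap.apply ℝ (F →L[ℝ] G) c) ∘L
        (ContinuousLinearMap.apply ℝ (F →L[ℝ] F →L[ℝ] G) b) with hΦ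
    have h1 := fderiv_clm (Φ b c) hs hf3 hx
    have h2 := fderiv_clm (Φ c b) hs hf3 hx
    have h3 : (fun y => Φ b c (fderiv ℝ (fderiv ℝ (fderiv ℝ f)) y)) =ᶠ[𝓝 x]
        fun y => Φ c b (fderiv ℝ (fderiv ℝ (fderiv ℝ f)) y) := by
      filter_upwards [hs.mem_nhds hx] with y hy
      exact snd_symm hs hf1 hy b c
    rw [h3.fderiv_eq, h2] at h1
    exact (congrArg (fun A : F →L[ℝ] F →L[ℝ] G => A a d) h1).symm
  rw [s34, s12, s23]

end Four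

namespace BetaD

variable {V E E' : Type*} [NormedAddCommGroup E] [NormedSpace ℝ E]
  [NormedAddCommGroup E'] [NormedSpace ℝ E'] (D : BetaD V E E')

/-- the fourth derivative -/
def c22 (v : V) (α α' : E') (u u' : E) : ℝ :=
  iteratedFDeriv ℝ 4 (D.β v) 0 ![(α, 0), (α', 0), (0, u), (0, u')]

theorem zero_mem : (0 : E' × E) ∈ ball (0 : E' × E) D.r := mem_ball_self D.r_pos

theorem K_P1 (v : V) (u : E) (α : E') (u' : E) (α' : E') :
    D.K v (D.P1 v u α u') α' = D.c22 v α α' u u' := by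
  have hs : IsOpen (ball (0 : E' × E) D.r) := isOpen_ball
  have h0 : (0 : E' × E) ∈ ball (0 : E' × E) D.r := D.zero_mem
  -- `K (cc p u') α' = D² β p (0,u') (α',0)`
  set Φ : (E →L[ℝ] E) →L[ℝ] ℝ := (ContinuousLinearMap.apply ℝ ℝ α') ∘L
    (D.K v : E →L[ℝ] E' →L[ℝ] ℝ) ∘L (ContinuousLinearMap.apply ℝ E u') with hΦ
  set Ψ : (E' × E →L[ℝ] E' × E →L[ℝ] ℝ) →L[ℝ] ℝ := (ContinuousLinearMap.apply ℝ ℝ (α', 0)) ∘L
    (ContinuousLinearMap.apply ℝ (E' × E →L[ℝ] ℝ) (0, u')) with hΨ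
  have hf1 : ContDiffOn ℝ ∞ (fderiv ℝ (D.β v)) (ball 0 D.r) :=
    (D.smooth v).fderiv_of_isOpen hs (by simp)
  have hf2 : ContDiffOn ℝ ∞ (fderiv ℝ (fderiv ℝ (D.β v))) (ball 0 D.r) :=
    hf1.fderiv_of_isOpen hs (by simp)
  have e : ∀ p ∈ ball (0 : E' × E) D.r, Φ (D.cc v p) = Ψ (fderiv ℝ (fderiv ℝ (D.β v)) p) := by
    intro p hp
    have h1 : Φ (D.cc v p) = D.D1 v p u' α' := by
      rw [D.D1_eq]; rfl
    rw [h1]
    have h2 : HasFDerivAt (D.Ph v) (pl ∘L fderiv ℝ (fderiv ℝ (D.β v)) p) p :=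
      (pl (E := E) (E' := E')).hasFDerivAt.comp p (smooth_at hs hf1 hp).hasFDerivAt
    show fderiv ℝ (D.Ph v) p (0, u') α' = _
    rw [h2.fderiv]
    rfl
  have h1 := fderiv2_clm Φ hs (D.cc_smooth v) h0 (0, u) (α, 0)
  have h2 := fderiv2_clm Ψ hs hf2 h0 (0, u) (α, 0)
  have h3 : (fun p => Φ (D.cc v p)) =ᶠ[𝓝 0] fun p => Ψ (fderiv ℝ (fderiv ℝ (D.β v)) p) := by
    filter_upwards [hs.mem_nhds h0] with p hp using e p hp
  rw [h3.fderiv.fderiv_eq, h2] at h1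
  have h4 : D.K v (D.P1 v u α u') α' = Φ (fderiv ℝ (fderiv ℝ (D.cc v)) 0 (0, u) (α, 0)) := by
    have h5 : D.P1 v u α = fderiv ℝ (fderiv ℝ (D.cc v)) 0 (0, u) (α, 0) :=
      D.DZU_eq (p := (0, 0)) h0 u α
    rw [h5]; rfl
  rw [h4, ← h1, c22, iter4]
  exact perm4 hs (D.smooth v) h0 (0, u) (α, 0) (0, u') (α', 0)

theorem c22_flow (v : V) (α α' : E') (u u' : E) : D.c22 (D.ψ v) α α' u u' =
    D.c22 v (D.L' v α) (D.L' v α') (D.L v u) (D.L v u') := by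
  rw [← D.K_P1, ← D.K_P1, D.P1_equi v, D.K_equi v]
  simp [cj]

theorem K_norm (v : V) : ‖(D.K v : E →L[ℝ] E' →L[ℝ] ℝ)‖ ≤ D.M 2 := by
  have h0 := D.zero_mem
  have hs : IsOpen (ball (0 : E' × E) D.r) := isOpen_ball
  have hf1 : ContDiffOn ℝ ∞ (fderiv ℝ (D.β v)) (ball 0 D.r) :=
    (D.smooth v).fderiv_of_isOpen hs (by simp)
  have h2 : HasFDerivAt (D.Ph v) (pl ∘L fderiv ℝ (fderiv ℝ (D.β v)) 0) 0 :=
    (pl (E := E) (E' := E')).hasFDerivAt.comp 0 (smooth_at hs hf1 h0).hasFDerivAt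
  have hM : ‖fderiv ℝ (fderiv ℝ (D.β v)) 0‖ ≤ D.M 2 := by
    have h3 := D.bound v 2 0 h0
    rw [← norm_iteratedFDeriv_fderiv, norm_iteratedFDeriv_one] at h3
    exact h3
  have hM0 : 0 ≤ D.M 2 := (norm_nonneg _).trans hM
  refine ContinuousLinearMap.opNorm_le_bound _ hM0 fun u => ?_
  refine ContinuousLinearMap.opNorm_le_bound _ (by positivity) fun α => ?_
  have e : (D.K v : E →L[ℝ] E' →L[ℝ] ℝ) u α = fderiv ℝ (fderiv ℝ (D.β v)) 0 (0, u) (α, 0) := by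
    rw [← D.D1_zero v]
    show fderiv ℝ (D.Ph v) 0 (0, u) α = _
    rw [h2.fderiv]; rfl
  rw [e]
  refine (ContinuousLinearMap.le_opNorm₂ _ _ _).trans ?_
  have e1 : ‖((0 : E'), u)‖ = ‖u‖ := by simp [Prod.norm_def]
  have e2 : ‖(α, (0 : E))‖ = ‖α‖ := by simp [Prod.norm_def]
  rw [e1, e2]
  gcongr

end BetaD

namespace BaseD

variable {V E E' : Type*} [NormedAddCommGroup E] [NormedSpace ℝ E]
  [NormedAddCommGroup E'] [NormedSpace ℝ E'] (D : BaseD V E E')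

/-- the transported `c22` -/
theorem c22_tp {v : V} {z : E'} (hz : ‖z‖ < D.ρ) (α α' : E') (u u' : E) :
    D.c22 (D.mv v z) (D.κ' v z α) (D.κ' v z α') (D.κ v z u) (D.κ v z u') =
      D.K v (tp (D.κ v z) (D.κ' v z) (D.P1 (D.mv v z)) u α u') α' := by
  rw [← D.K_P1, D.K_par hz (tp (D.κ v z) (D.κ' v z) (D.P1 (D.mv v z)) u α u'), tp_apply]
  simp [cj]

theorem c22_lip {v : V} {z : E'} (hz : ‖z‖ < D.ρ) (α α' : E') (u u' : E) :
    |D.c22 (D.mv v z) (D.κ' v z α) (D.κ' v z α') (D.κ v z u) (D.κ v z u') - D.c22 v α α' u u'| ≤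
      D.M 2 * D.A 3 * ‖z‖ * ‖α‖ * ‖α'‖ * ‖u‖ * ‖u'‖ := by
  rw [D.c22_tp hz, ← D.K_P1, ← sub_apply, ← map_sub, ← sub_apply, ← sub_apply, ← sub_apply]
  set Δ := tp (D.κ v z) (D.κ' v z) (D.P1 (D.mv v z)) - D.P1 v with hΔ
  have h1 : ‖Δ‖ ≤ D.A 3 * ‖z‖ := D.tp_lip hz
  have h2 : ‖Δ u α u'‖ ≤ D.A 3 * ‖z‖ * ‖u‖ * ‖α‖ * ‖u'‖ := by
    refine ((Δ u α).le_opNorm u').trans ?_
    refine mul_le_mul_of_nonneg_right ((Δ.le_opNorm₂ u α).trans ?_) (norm_nonneg _)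
    gcongr
  have hM := D.K_norm v
  have hM0 : 0 ≤ D.M 2 := (norm_nonneg _).trans hM
  rw [← Real.norm_eq_abs]
  calc ‖D.K v (Δ u α u') α'‖ ≤ ‖(D.K v : E →L[ℝ] E' →L[ℝ] ℝ)‖ * ‖Δ u α u'‖ * ‖α'‖ :=
        (D.K v : E →L[ℝ] E' →L[ℝ] ℝ).le_opNorm₂ _ _
    _ ≤ D.M 2 * (D.A 3 * ‖z‖ * ‖u‖ * ‖α‖ * ‖u'‖) * ‖α'‖ := by gcongr
    _ = D.M 2 * D.A 3 * ‖z‖ * ‖α‖ * ‖α'‖ * ‖u‖ * ‖u'‖ := by ring

end BaseD

/-- **`PAR` from `c22`** -/
theorem FlipD.par_of_c22 {V E : Type*} [NormedAddCommGroup E] [NormedSpace ℝ E] (D : FlipD V E)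
    (h : ∀ v z, ‖z‖ < D.ρ → ∀ α α' u u',
      D.c22 (D.mv v z) (D.κ' v z α) (D.κ' v z α') (D.κ v z u) (D.κ v z u') =
        D.c22 v α α' u u') : D.Par := by
  intro v z hz
  ext1 u
  ext1 α
  ext1 u'
  apply (D.K v).injective
  ext1 α'
  rw [← D.c22_tp hz, h v z hz, D.K_P1]

end Vale.Agent.P207.H267.Q
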