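import Vale.Agent.P207.H267.Q.BetaQ

/-!
P207, all dimensions, strictly quarter pinched (`b < 2a`), row ST8': the tensor
`P1 v = ∂_u ∂_z C v` at `0` and its transport along the stable leaf.
-/

set_option maxSynthPendingDepth 3

open Set Filter Topology Metric
open scoped ContDiff

noncomputable section

namespace Vale.Agent.P207.H267.Q

section Calc2

variable {E E' W : Type*} [NormedAddCommGroup E] [NormedSpace ℝ E]
  [NormedAddCommGroup E'] [NormedSpace ℝ E'] [NormedAddCommGroup W] [NormedSpace ℝ W]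

/-- restriction of a linear map to the first factor -/
def plW : (E' × E →L[ℝ] W) →L[ℝ] (E' →L[ℝ] W) :=
  (ContinuousLinearMap.compL ℝ E' (E' × E) W).flip (ContinuousLinearMap.inl ℝ E' E)

@[simp] theorem plW_apply (A : E' × E →L[ℝ] W) (z : E') : plW A z = A (z, 0) := rfl

end Calc2

namespace BetaD

variable {V E E' : Type*} [NormedAddCommGroup E] [NormedSpace ℝ E]
  [NormedAddCommGroup E'] [NormedSpace ℝ E'] (D : BetaD V E E')

/-- the `z`-derivative of the derivative of the holonomy -/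
def DZ (v : V) (p : E' × E) : E' →L[ℝ] E →L[ℝ] E := plW (fderiv ℝ (D.cc v) p)

/-- the `u`-derivative -/
def DU (v : V) (p : E' × E) : E →L[ℝ] E →L[ℝ] E := pr (fderiv ℝ (D.cc v) p)

/-- the mixed derivatives -/
def DZU (v : V) (p : E' × E) : E →L[ℝ] E' →L[ℝ] E →L[ℝ] E := pr (fderiv ℝ (D.DZ v) p)

def DUZ (v : V) (p : E' × E) : E' →L[ℝ] E →L[ℝ] E →L[ℝ] E := plW (fderiv ℝ (D.DU v) p)

/-- the tensor -/
def P1 (v : V) : E →L[ℝ] E' →L[ℝ] E →L[ℝ] E := D.DZU v (0, 0)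

theorem fcc_smooth (v : V) : ContDiffOn ℝ ∞ (fderiv ℝ (D.cc v)) (ball 0 D.r) :=
  (D.cc_smooth v).fderiv_of_isOpen isOpen_ball (by simp)

theorem DZ_smooth (v : V) : ContDiffOn ℝ ∞ (D.DZ v) (ball 0 D.r) :=
  (plW (E := E) (E' := E') (W := E →L[ℝ] E)).contDiff.comp_contDiffOn (D.fcc_smooth v)

theorem DU_smooth (v : V) : ContDiffOn ℝ ∞ (D.DU v) (ball 0 D.r) :=
  (pr (E := E) (E' := E') (W := E →L[ℝ] E)).contDiff.comp_contDiffOn (D.fcc_smooth v)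

theorem fcc_diff {v : V} {p : E' × E} (hp : p ∈ ball (0 : E' × E) D.r) :
    HasFDerivAt (fderiv ℝ (D.cc v)) (fderiv ℝ (fderiv ℝ (D.cc v)) p) p :=
  (((D.fcc_smooth v).contDiffAt (isOpen_ball.mem_nhds hp)).differentiableAt
    (by simp)).hasFDerivAt

theorem DZ_diff {v : V} {p : E' × E} (hp : p ∈ ball (0 : E' × E) D.r) :
    HasFDerivAt (D.DZ v) (fderiv ℝ (D.DZ v) p) p :=
  (((D.DZ_smooth v).contDiffAt (isOpen_ball.mem_nhds hp)).differentiableAt (by simp)).hasFDerivAt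

theorem DU_diff {v : V} {p : E' × E} (hp : p ∈ ball (0 : E' × E) D.r) :
    HasFDerivAt (D.DU v) (fderiv ℝ (D.DU v) p) p :=
  (((D.DU_smooth v).contDiffAt (isOpen_ball.mem_nhds hp)).differentiableAt (by simp)).hasFDerivAt

theorem fderiv_DZ {v : V} {p : E' × E} (hp : p ∈ ball (0 : E' × E) D.r) (q : E' × E) (α : E') :
    fderiv ℝ (D.DZ v) p q α = fderiv ℝ (fderiv ℝ (D.cc v)) p q (α, 0) := by
  have h : HasFDerivAt (D.DZ v) ((plW (E := E) (E' := E') (W := E →L[ℝ] E)) ∘L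
      fderiv ℝ (fderiv ℝ (D.cc v)) p) p :=
    (plW (E := E) (E' := E') (W := E →L[ℝ] E)).hasFDerivAt.comp p (D.fcc_diff hp)
  rw [h.fderiv]
  rfl

theorem fderiv_DU {v : V} {p : E' × E} (hp : p ∈ ball (0 : E' × E) D.r) (q : E' × E) (u : E) :
    fderiv ℝ (D.DU v) p q u = fderiv ℝ (fderiv ℝ (D.cc v)) p q (0, u) := by
  have h : HasFDerivAt (D.DU v) ((pr (E := E) (E' := E') (W := E →L[ℝ] E)) ∘L
      fderiv ℝ (fderiv ℝ (D.cc v)) p) p :=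
    (pr (E := E) (E' := E') (W := E →L[ℝ] E)).hasFDerivAt.comp p (D.fcc_diff hp)
  rw [h.fderiv]
  rfl

theorem DZU_eq {v : V} {p : E' × E} (hp : p ∈ ball (0 : E' × E) D.r) (u : E) (α : E') :
    D.DZU v p u α = fderiv ℝ (fderiv ℝ (D.cc v)) p (0, u) (α, 0) := D.fderiv_DZ hp (0, u) α

theorem DUZ_eq {v : V} {p : E' × E} (hp : p ∈ ball (0 : E' × E) D.r) (u : E) (α : E') :
    D.DUZ v p α u = fderiv ℝ (fderiv ℝ (D.cc v)) p (α, 0) (0, u) := D.fderiv_DU hp (α, 0) u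

theorem symm2 {v : V} {p : E' × E} (hp : p ∈ ball (0 : E' × E) D.r) (u : E) (α : E') :
    D.DUZ v p α u = D.DZU v p u α := by
  have h1 : ContDiffAt ℝ ∞ (D.cc v) p := (D.cc_smooth v).contDiffAt (isOpen_ball.mem_nhds hp)
  have hs : IsSymmSndFDerivAt ℝ (D.cc v) p :=
    h1.isSymmSndFDerivAt (by
      rw [minSmoothness_of_isRCLikeNormedField]
      exact ENat.LEInfty.out)
  rw [D.DZU_eq hp, D.DUZ_eq hp]
  exact hs.eq _ _

theorem mem_mk {z : E'} {u : E} (hz : ‖z‖ < D.r) (hu : ‖u‖ < D.r) :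
    (z, u) ∈ ball (0 : E' × E) D.r := by rw [mem_iff]; exact ⟨hz, hu⟩

theorem C_deriv_z {v : V} {z : E'} {u : E} (hz : ‖z‖ < D.r) (hu : ‖u‖ < D.r) :
    HasFDerivAt (D.C v u) (D.DZ v (z, u)) z := D.C_diff hz hu

theorem C_deriv_u {v : V} {z : E'} {u : E} (hz : ‖z‖ < D.r) (hu : ‖u‖ < D.r) :
    HasFDerivAt (fun u => D.C v u z) (D.DU v (z, u)) u :=
  comp_right (D.cc_diff (v := v) (D.mem_mk hz hu))

theorem DZ_deriv_u {v : V} {z : E'} {u : E} (hz : ‖z‖ < D.r) (hu : ‖u‖ < D.r) :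
    HasFDerivAt (fun u => D.DZ v (z, u)) (D.DZU v (z, u)) u :=
  comp_right (D.DZ_diff (v := v) (D.mem_mk hz hu))

theorem DU_deriv_z {v : V} {z : E'} {u : E} (hz : ‖z‖ < D.r) (hu : ‖u‖ < D.r) :
    HasFDerivAt (fun z => D.DU v (z, u)) (D.DUZ v (z, u)) z :=
  comp_left (D.DU_diff (v := v) (D.mem_mk hz hu))

theorem DZ_zero {v : V} {z : E'} (hz : ‖z‖ < D.r) : D.DZ v (z, 0) = 0 := by
  have h0 : ‖(0 : E)‖ < D.r := by simpa using D.r_pos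
  have h1 := D.C_deriv_z (v := v) hz h0
  have h2 : D.C v 0 =ᶠ[𝓝 z] fun _ => (1 : E →L[ℝ] E) := by
    filter_upwards [isOpen_ball.mem_nhds (show z ∈ ball (0 : E') D.r by simpa using hz)] with w hw
    exact D.cc_right v w (by simpa using hw)
  exact h1.unique ((hasFDerivAt_const (1 : E →L[ℝ] E) z).congr_of_eventuallyEq h2)

theorem DU_zero {v : V} {u : E} (hu : ‖u‖ < D.r) : D.DU v (0, u) = 0 := by
  have h0 : ‖(0 : E')‖ < D.r := by simpa using D.r_pos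
  have h1 := D.C_deriv_u (v := v) h0 hu
  have h2 : (fun u => D.C v u 0) =ᶠ[𝓝 u] fun _ => (1 : E →L[ℝ] E) := by
    filter_upwards [isOpen_ball.mem_nhds (show u ∈ ball (0 : E) D.r by simpa using hu)] with w hw
    exact D.cc_left v w (by simpa using hw)
  exact h1.unique ((hasFDerivAt_const (1 : E →L[ℝ] E) u).congr_of_eventuallyEq h2)

/-- bound of the third derivative -/
theorem DZU_lip {v : V} {z : E'} (hz : ‖z‖ < D.r) :
    ‖D.DZU v (z, 0) - D.DZU v (0, 0)‖ ≤ D.A 3 * ‖z‖ := by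
  have h00 : ‖(0 : E')‖ < D.r := by simpa using D.r_pos
  have h0 : ‖(0 : E)‖ < D.r := by simpa using D.r_pos
  have hA : 0 ≤ D.A 3 := D.A_nonneg v 3
  have hl : ‖fderiv ℝ (fderiv ℝ (D.cc v)) (z, 0) - fderiv ℝ (fderiv ℝ (D.cc v)) (0, 0)‖ ≤
      D.A 3 * ‖((z, 0) : E' × E) - (0, 0)‖ := by
    refine fderiv_lip isOpen_ball (convex_ball _ _) (D.fcc_smooth v) (fun p hp => ?_)
      (D.mem_mk h00 h0) (D.mem_mk hz h0)
    rw [norm_iteratedFDeriv_fderiv]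
    exact D.cc_bound 3 hp
  have hn : ‖((z, 0) : E' × E) - (0, 0)‖ = ‖z‖ := by simp [Prod.norm_def]
  rw [hn] at hl
  refine ContinuousLinearMap.opNorm_le_bound _ (by positivity) fun u => ?_
  refine ContinuousLinearMap.opNorm_le_bound _ (by positivity) fun α => ?_
  rw [sub_apply, sub_apply, D.DZU_eq (D.mem_mk hz h0), D.DZU_eq (D.mem_mk h00 h0), ← sub_apply,
    ← sub_apply]
  refine (ContinuousLinearMap.le_opNorm₂ _ _ _).trans ?_
  have e1 : ‖((0 : E'), u)‖ = ‖u‖ := by simp [Prod.norm_def]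
  have e2 : ‖(α, (0 : E))‖ = ‖α‖ := by simp [Prod.norm_def]
  rw [e1, e2]
  gcongr

/-- equivariance of the tensor -/
theorem P1_equi (v : V) (u : E) (α : E') : D.P1 v u α =
    cj (D.L v) (D.P1 (D.ψ v) ((D.L v).symm u) ((D.L' v).symm α)) := by
  have h00 : ‖(0 : E')‖ < D.r := by simpa using D.r_pos
  have h0 : ‖(0 : E)‖ < D.r := by simpa using D.r_pos
  have hm : ((0, 0) : E' × E) ∈ ball (0 : E' × E) D.r := D.mem_mk h00 h0
  have hM0 : D.Lm v (0, 0) = (0, 0) := by simp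
  -- the good set
  have hU : ∀ᶠ p in 𝓝 ((0, 0) : E' × E), p ∈ ball (0 : E' × E) D.r ∧
      D.Lm v p ∈ ball (0 : E' × E) D.r := by
    have h2 : ∀ᶠ p in 𝓝 ((0, 0) : E' × E), D.Lm v p ∈ ball (0 : E' × E) D.r := by
      refine (D.Lm v).continuous.continuousAt.preimage_mem_nhds (isOpen_ball.mem_nhds ?_)
      rw [hM0]; exact hm
    have h6 : ∀ᶠ p in 𝓝 ((0, 0) : E' × E), p ∈ ball (0 : E' × E) D.r := isOpen_ball.mem_nhds hm
    exact h6.and h2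
  have h1 : ∀ᶠ p in 𝓝 ((0, 0) : E' × E), D.cc v p = cjL (D.L v) (D.cc (D.ψ v) (D.Lm v p)) := by
    filter_upwards [hU] with p hp
    rw [cjL_apply]
    have h3 := mem_iff.mp hp.1
    have h4 := mem_iff.mp hp.2
    exact D.C_equi v p.2 p.1 h3.2 h3.1 h4.1
  have hf1 : ∀ᶠ p in 𝓝 ((0, 0) : E' × E), fderiv ℝ (D.cc v) p =
      (cjL (D.L v)) ∘L (fderiv ℝ (D.cc (D.ψ v)) (D.Lm v p)) ∘L D.Lm v := by
    filter_upwards [hU, h1.eventually_nhds] with p hp hp1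
    have e : D.cc v =ᶠ[𝓝 p] fun p => cjL (D.L v) (D.cc (D.ψ v) (D.Lm v p)) := hp1
    rw [e.fderiv_eq]
    exact ((cjL (D.L v)).hasFDerivAt.comp p
      ((D.cc_diff (v := D.ψ v) hp.2).comp p (D.Lm v).hasFDerivAt)).fderiv
  set Φ : (E' × E →L[ℝ] E →L[ℝ] E) →L[ℝ] (E' × E →L[ℝ] E →L[ℝ] E) :=
    (ContinuousLinearMap.compL ℝ (E' × E) (E →L[ℝ] E) (E →L[ℝ] E) (cjL (D.L v))) ∘L
      ((ContinuousLinearMap.compL ℝ (E' × E) (E' × E) (E →L[ℝ] E)).flip (D.Lm v)) with hΦ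
  have hf2 : fderiv ℝ (D.cc v) =ᶠ[𝓝 ((0, 0) : E' × E)]
      fun p => Φ (fderiv ℝ (D.cc (D.ψ v)) (D.Lm v p)) := by
    filter_upwards [hf1] with p hp
    rw [hp]; rfl
  have hd : HasFDerivAt (fun p => Φ (fderiv ℝ (D.cc (D.ψ v)) (D.Lm v p)))
      (Φ ∘L ((fderiv ℝ (fderiv ℝ (D.cc (D.ψ v))) (D.Lm v (0, 0))) ∘L D.Lm v)) (0, 0) :=
    Φ.hasFDerivAt.comp _ ((D.fcc_diff (v := D.ψ v) (by rw [hM0]; exact hm)).comp _
      (D.Lm v).hasFDerivAt)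
  have h5 := (hd.congr_of_eventuallyEq hf2).fderiv
  rw [P1, D.DZU_eq hm, h5, hM0]
  show cjL (D.L v) (fderiv ℝ (fderiv ℝ (D.cc (D.ψ v))) (0, 0) (D.Lm v (0, u)) (D.Lm v (α, 0))) = _
  rw [cjL_apply, Lm_apply, Lm_apply, P1, D.DZU_eq (v := D.ψ v) hm]
  simp

end BetaD

namespace BaseD

open BetaD

variable {V E E' : Type*} [NormedAddCommGroup E] [NormedSpace ℝ E]
  [NormedAddCommGroup E'] [NormedSpace ℝ E'] (D : BaseD V E E')

/-- the derivative in `z` at a general point -/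
theorem DZ_base {v : V} {z₁ : E'} {u : E} (hz : ‖z₁‖ < D.ρ) (hu : ‖u‖ < D.ρ) (α : E') :
    D.DZ v (z₁, u) α =
      (cjL (D.κ v z₁).symm (D.DZ (D.mv v z₁) (0, D.g v z₁ u) (D.κ' v z₁ α))) ∘L
        D.C v u z₁ := by
  set T : (E →L[ℝ] E) →L[ℝ] (E →L[ℝ] E) :=
    ((ContinuousLinearMap.compL ℝ E E E).flip (D.C v u z₁)) ∘L cjL (D.κ v z₁).symm with hT
  have h00 : ‖(0 : E')‖ < D.r := by simpa using D.r_pos
  have d1 : HasFDerivAt (fun w => D.κ' v z₁ (w - z₁)) (D.κ' v z₁ : E' →L[ℝ] E') z₁ :=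
    (D.κ' v z₁ : E' →L[ℝ] E').hasFDerivAt.comp z₁ ((hasFDerivAt_id z₁).sub_const z₁)
  have d2 : HasFDerivAt (D.C (D.mv v z₁) (D.g v z₁ u)) (D.DZ (D.mv v z₁) (0, D.g v z₁ u))
      (D.κ' v z₁ (z₁ - z₁)) := by
    rw [sub_self, map_zero]
    exact D.C_deriv_z h00 (D.g_lt v z₁ u hz hu)
  have d3 : HasFDerivAt (fun z => T (D.C (D.mv v z₁) (D.g v z₁ u) (D.κ' v z₁ (z - z₁))))
      (T ∘L ((D.DZ (D.mv v z₁) (0, D.g v z₁ u)) ∘L (D.κ' v z₁ : E' →L[ℝ] E'))) z₁ :=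
    T.hasFDerivAt.comp z₁ (HasFDerivAt.comp (g := D.C (D.mv v z₁) (D.g v z₁ u)) z₁ d2 d1)
  have d4 : (D.C v u) =ᶠ[𝓝 z₁]
      fun z => T (D.C (D.mv v z₁) (D.g v z₁ u) (D.κ' v z₁ (z - z₁))) := by
    filter_upwards [D.C_base (v := v) hz hu] with z hz'
    rw [hz']
    show _ = ((cjL (D.κ v z₁).symm) _) ∘L D.C v u z₁
    rw [cjL_apply]
  have h1 := (D.C_deriv_z (v := v) (D.lt_r hz) (D.lt_r hu)).unique (d3.congr_of_eventuallyEq d4)
  rw [h1]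
  rfl

theorem g_deriv' {v : V} {z : E'} (hz : ‖z‖ < D.ρ) :
    HasFDerivAt (D.g v z) (D.κ v z : E →L[ℝ] E) 0 := D.g_deriv v z hz

/-- **the transport of the tensor** -/
theorem tp_P1 {v : V} {z : E'} (hz : ‖z‖ < D.ρ) :
    tp (D.κ v z) (D.κ' v z) (D.P1 (D.mv v z)) = D.DZU v (z, 0) := by
  have h00 : ‖(0 : E')‖ < D.r := by simpa using D.r_pos
  have h0 : ‖(0 : E)‖ < D.r := by simpa using D.r_pos
  have hg0 := D.g_zero v z hz
  ext1 w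
  ext1 α
  have e1 : HasFDerivAt (fun u => D.DZ v (z, u) α)
      ((ContinuousLinearMap.apply ℝ (E →L[ℝ] E) α) ∘L D.DZU v (z, 0)) 0 :=
    (ContinuousLinearMap.apply ℝ (E →L[ℝ] E) α).hasFDerivAt.comp (0 : E)
      (D.DZ_deriv_u (v := v) (D.lt_r hz) h0)
  set T : (E' →L[ℝ] E →L[ℝ] E) →L[ℝ] (E →L[ℝ] E) :=
    (cjL (D.κ v z).symm) ∘L (ContinuousLinearMap.apply ℝ (E →L[ℝ] E) (D.κ' v z α)) with hT
  have e2 : HasFDerivAt (fun u => D.DZ (D.mv v z) (0, u)) (D.P1 (D.mv v z)) (D.g v z 0) := by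
    rw [hg0]; exact D.DZ_deriv_u h00 h0
  have e3 : HasFDerivAt (fun u => T (D.DZ (D.mv v z) (0, D.g v z u)))
      (T ∘L (D.P1 (D.mv v z) ∘L (D.κ v z : E →L[ℝ] E))) 0 :=
    T.hasFDerivAt.comp (0 : E)
      (HasFDerivAt.comp (g := fun u => D.DZ (D.mv v z) (0, u)) (0 : E) e2 (D.g_deriv' hz))
  have e4 := e3.clm_comp (D.C_deriv_u (v := v) (D.lt_r hz) h0)
  have e5 : (fun u => D.DZ v (z, u) α) =ᶠ[𝓝 0]
      fun u => (T (D.DZ (D.mv v z) (0, D.g v z u))).comp (D.C v u z) := by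
    filter_upwards [ball_mem_nhds (0 : E) D.ρ_pos] with u hu
    exact D.DZ_base hz (by simpa using hu) α
  have e6 := e1.unique (e4.congr_of_eventuallyEq e5)
  have e7 := congrArg (fun A : E →L[ℝ] E →L[ℝ] E => A w) e6
  have e8 : T (D.DZ (D.mv v z) (0, D.g v z 0)) = 0 := by
    rw [hg0, D.DZ_zero h00, map_zero]
  have e9 : D.C v 0 z = 1 := D.cc_right v z (D.lt_r hz)
  rw [tp_apply]
  have e10 : D.DZU v (z, 0) w α = ((ContinuousLinearMap.apply ℝ (E →L[ℝ] E) α) ∘L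
    D.DZU v (z, 0)) w := rfl
  rw [e10, e6, e8, e9]
  ext1 x
  simp [hT, cjL_apply]

theorem tp_lip {v : V} {z : E'} (hz : ‖z‖ < D.ρ) :
    ‖tp (D.κ v z) (D.κ' v z) (D.P1 (D.mv v z)) - D.P1 v‖ ≤ D.A 3 * ‖z‖ := by
  rw [D.tp_P1 hz]
  exact D.DZU_lip (D.lt_r hz)

end BaseD

end Vale.Agent.P207.H267.Q
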